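import Vale.Agent.P181.R2.H553.Defs

/-!
Finitely supported measures on `ℂ^3` with prescribed moments (ROW 3 of helper553).
-/

set_option autoImplicit false

namespace Vale.Agent.P181.H553

open Vale.Agent.P181 Vale.Agent.P181.H280 Vale.Agent.P181.H179

/-- The moment as a linear functional of the measure. -/
noncomputable def momL (a u v : ℕ) : Meas →ₗ[ℂ] ℂ :=
  Finsupp.linearCombination ℂ (fun p : Pt => p 0 ^ (a - u - v) * p 1 ^ u * p 2 ^ v)

theorem mom_eq_momL (a u v : ℕ) (c : Meas) : mom a u v c = momL a u v c := by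
  simp [mom, momL, Finsupp.linearCombination_apply, smul_eq_mul]

theorem mom_add (a u v : ℕ) (c c' : Meas) : mom a u v (c + c') = mom a u v c + mom a u v c' := by
  simp [mom_eq_momL]

theorem mom_smul (a u v : ℕ) (r : ℂ) (c : Meas) : mom a u v (r • c) = r * mom a u v c := by
  simp [mom_eq_momL]

theorem mom_sum (a u v : ℕ) {ι : Type*} (s : Finset ι) (c : ι → Meas) :
    mom a u v (∑ i ∈ s, c i) = ∑ i ∈ s, mom a u v (c i) := by
  simp [mom_eq_momL]

theorem mom_single (a u v : ℕ) (p : Pt) (r : ℂ) :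
    mom a u v (Finsupp.single p r) = r * (p 0 ^ (a - u - v) * p 1 ^ u * p 2 ^ v) := by
  simp [mom_eq_momL, momL, smul_eq_mul]

/-- Interpolation weights at the points `0, 1, …, a`. -/
theorem exists_weights (a : ℕ) : ∃ W : Fin (a + 1) → Fin (a + 1) → ℂ,
    ∀ u v : Fin (a + 1), ∑ i : Fin (a + 1), W u i * ((i : ℕ) : ℂ) ^ (v : ℕ) =
      if u = v then 1 else 0 := by
  classical
  let V : Matrix (Fin (a + 1)) (Fin (a + 1)) ℂ := Matrix.vandermonde (fun i => ((i : ℕ) : ℂ))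
  have hdet : V.det ≠ 0 := by
    rw [Matrix.det_vandermonde_ne_zero_iff]
    intro i j h
    have h' : ((i : ℕ) : ℂ) = ((j : ℕ) : ℂ) := h
    exact Fin.ext (by exact_mod_cast h')
  have hinv : V⁻¹ * V = 1 := Matrix.nonsing_inv_mul V (isUnit_iff_ne_zero.mpr hdet)
  refine ⟨fun u i => V⁻¹ u i, fun u v => ?_⟩
  have h := congrFun (congrFun hinv u) v
  rw [Matrix.mul_apply, Matrix.one_apply] at h
  simpa [V, Matrix.vandermonde_apply] using h

/-- ROW 3. Measures with prescribed moments. -/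
theorem exists_meas (a : ℕ) (t : ℕ → ℕ → ℂ) :
    ∃ c : Meas, ∀ u v, u + v ≤ a → mom a u v c = t u v := by
  classical
  obtain ⟨W, hW⟩ := exists_weights a
  refine ⟨∑ u : Fin (a + 1), ∑ v : Fin (a + 1), ∑ i : Fin (a + 1), ∑ j : Fin (a + 1),
    Finsupp.single (![1, ((i : ℕ) : ℂ), ((j : ℕ) : ℂ)] : Pt) (t u v * (W u i * W v j)), ?_⟩
  intro u v huv
  have hu : u < a + 1 := by omega
  have hv : v < a + 1 := by omega
  simp only [mom_sum, mom_single]
  have key : ∀ u' v' : Fin (a + 1),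
      (∑ i : Fin (a + 1), ∑ j : Fin (a + 1), t u' v' * (W u' i * W v' j) *
        ((![1, ((i : ℕ) : ℂ), ((j : ℕ) : ℂ)] : Pt) 0 ^ (a - u - v) *
          (![1, ((i : ℕ) : ℂ), ((j : ℕ) : ℂ)] : Pt) 1 ^ u *
          (![1, ((i : ℕ) : ℂ), ((j : ℕ) : ℂ)] : Pt) 2 ^ v)) =
      t u' v' * ((if u' = ⟨u, hu⟩ then 1 else 0) * (if v' = ⟨v, hv⟩ then 1 else 0)) := by
    intro u' v'
    rw [← hW u' ⟨u, hu⟩, ← hW v' ⟨v, hv⟩, Finset.sum_mul_sum, Finset.mul_sum]
    refine Finset.sum_congr rfl fun i _ => ?_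
    rw [Finset.mul_sum]
    refine Finset.sum_congr rfl fun j _ => ?_
    simp
    ring
  simp only [key]
  rw [Finset.sum_eq_single (⟨u, hu⟩ : Fin (a + 1))]
  · rw [Finset.sum_eq_single (⟨v, hv⟩ : Fin (a + 1))]
    · simp
    · intro b _ hb
      simp [hb]
    · intro h
      exact absurd (Finset.mem_univ _) h
  · intro b _ hb
    simp [hb]
  · intro h
    exact absurd (Finset.mem_univ _) h

end Vale.Agent.P181.H553
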