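import Vale.Agent.P181.R2.H553.CDefs
import Mathlib.Algebra.Polynomial.Inductions
import Mathlib.Algebra.Polynomial.Derivative

/-!
The linear part of a symmetric integral over five points at the frame (ROW A3 of helper553).
-/

set_option autoImplicit false

namespace Vale.Agent.P181.H553

open Vale.Agent.P181 Vale.Agent.P181.H280 Vale.Agent.P181.H179
open Polynomial

namespace A3

/-- The integral over any set which contains the support. -/
theorem integ_eq_of_subset {r : ℕ} (c : Meas) (f : (Fin r → Pt) → ℂ) (S : Finset Pt)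
    (hS : c.support ⊆ S) :
    integ c f = ∑ p ∈ Fintype.piFinset (fun _ : Fin r => S), (∏ l, c (p l)) * f p := by
  classical
  unfold integ
  refine Finset.sum_subset ?_ ?_
  · intro p hp
    rw [Fintype.mem_piFinset] at hp ⊢
    exact fun l => hS (hp l)
  · intro p _ hp
    rw [Fintype.mem_piFinset] at hp
    push Not at hp
    obtain ⟨l, hl⟩ := hp
    rw [Finsupp.notMem_support_iff] at hl
    rw [Finset.prod_eq_zero (Finset.mem_univ l) hl, zero_mul]

theorem frame_injective : Function.Injective frame := by
  intro i j h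
  have h0 := congrFun h 0
  have h1 := congrFun h 1
  have h2 := congrFun h 2
  fin_cases i <;> fin_cases j <;> simp [frame] at h0 h1 h2 ⊢

/-- The sum of the four point masses of the frame. -/
noncomputable def c0 : Meas := ∑ k : Fin 4, Finsupp.single (frame k) (1 : ℂ)

theorem c0_frame (k : Fin 4) : c0 (frame k) = 1 := by
  classical
  unfold c0
  rw [Finsupp.finsetSum_apply, Finset.sum_eq_single k]
  · simp
  · intro b _ hb
    rw [Finsupp.single_apply, if_neg]
    exact fun h => hb (frame_injective h)
  · intro h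
    exact absurd (Finset.mem_univ _) h

theorem exists_frame_of_c0 {x : Pt} (h : c0 x ≠ 0) : ∃ k, frame k = x := by
  classical
  by_contra hx
  push Not at hx
  apply h
  unfold c0
  rw [Finsupp.finsetSum_apply]
  exact Finset.sum_eq_zero fun k _ => by rw [Finsupp.single_apply, if_neg (hx k)]

/-- Expansion of a polynomial to first order. -/
theorem eval_first (P : ℂ[X]) (τ : ℂ) :
    P.eval τ = P.coeff 0 + τ * (P.coeff 1 + τ * P.divX.divX.eval τ) := by
  have h1 := congrArg (Polynomial.eval τ) (Polynomial.divX_mul_X_add P)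
  have h2 := congrArg (Polynomial.eval τ) (Polynomial.divX_mul_X_add P.divX)
  rw [Polynomial.eval_add, Polynomial.eval_mul, Polynomial.eval_X, Polynomial.eval_C] at h1 h2
  rw [Polynomial.coeff_divX] at h2
  rw [← h1, ← h2]
  ring

theorem coeff1_prod {r : ℕ} (a b : Fin r → ℂ) :
    (∏ l, (C (a l) + X * C (b l))).coeff 1 =
      ∑ i, ∏ l, (if l = i then b l else a l) := by
  classical
  have h1 : (∏ l, (C (a l) + X * C (b l))).coeff 1 =
      (Polynomial.derivative (∏ l, (C (a l) + X * C (b l)))).eval 0 := by
    rw [← Polynomial.coeff_zero_eq_eval_zero, Polynomial.coeff_derivative]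
    simp
  rw [h1, Polynomial.derivative_prod_finset, Polynomial.eval_finsetSum]
  refine Finset.sum_congr rfl fun i _ => ?_
  rw [Polynomial.eval_mul, Polynomial.eval_prod]
  rw [← Finset.prod_erase_mul Finset.univ _ (Finset.mem_univ i)]
  congr 1
  · refine Finset.prod_congr rfl fun l hl => ?_
    rw [if_neg (Finset.ne_of_mem_erase hl)]
    simp
  · simp

theorem coeff0_prod {r : ℕ} (a b : Fin r → ℂ) :
    (∏ l, (C (a l) + X * C (b l))).coeff 0 = ∏ l, a l := by
  rw [Polynomial.coeff_zero_eq_eval_zero, Polynomial.eval_prod]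
  simp

/-- The sum over `S ^ 4` of a function that vanishes when two points coincide. -/
theorem sum_frame (g : (Fin 4 → Pt) → ℂ) (S : Finset Pt) (hS : c0.support ⊆ S)
    (hg : ∀ (q : Fin 4 → Pt) (i j : Fin 4), i ≠ j → q i = q j → g q = 0) :
    ∑ q ∈ Fintype.piFinset (fun _ : Fin 4 => S), (∏ l, c0 (q l)) * g q =
      ∑ σ : Equiv.Perm (Fin 4), g (fun l => frame (σ l)) := by
  classical
  have hinj : Set.InjOn (fun (σ : Equiv.Perm (Fin 4)) (l : Fin 4) => frame (σ l))
      ((Finset.univ : Finset (Equiv.Perm (Fin 4))) : Set (Equiv.Perm (Fin 4))) := by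
    intro σ _ σ' _ h
    refine Equiv.ext fun l => frame_injective ?_
    exact congrFun h l
  have h2 : ∑ σ : Equiv.Perm (Fin 4), g (fun l => frame (σ l)) =
      ∑ q ∈ (Finset.univ : Finset (Equiv.Perm (Fin 4))).image (fun σ (l : Fin 4) => frame (σ l)),
        (∏ l, c0 (q l)) * g q := by
    rw [Finset.sum_image hinj]
    refine Finset.sum_congr rfl fun σ _ => ?_
    simp [c0_frame]
  rw [h2]
  symm
  refine Finset.sum_subset ?_ ?_
  · intro q hq
    rw [Finset.mem_image] at hq
    obtain ⟨σ, _, rfl⟩ := hq
    rw [Fintype.mem_piFinset]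
    intro l
    apply hS
    rw [Finsupp.mem_support_iff, c0_frame]
    exact one_ne_zero
  · intro q _ hq
    by_cases h0 : ∀ l, c0 (q l) ≠ 0
    · choose k hk using fun l => exists_frame_of_c0 (h0 l)
      have hk' : ¬ Function.Injective k := by
        intro hki
        apply hq
        rw [Finset.mem_image]
        refine ⟨Equiv.ofBijective k (Finite.injective_iff_bijective.mp hki), Finset.mem_univ _, ?_⟩
        funext l
        exact hk l
      rw [Function.Injective] at hk'
      push Not at hk'
      obtain ⟨i, j, hij, hne⟩ := hk'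
      rw [hg q i j hne (by rw [← hk i, ← hk j, hij]), mul_zero]
    · push Not at h0
      obtain ⟨l, hl⟩ := h0
      rw [Finset.prod_eq_zero (Finset.mem_univ l) hl, zero_mul]

/-- The sum over `S ^ 5` against the frame vanishes. -/
theorem sum_five_zero (F : (Fin 5 → Pt) → ℂ)
    (hz : ∀ (p : Fin 5 → Pt) (i j : Fin 5), i ≠ j → p i = p j → F p = 0) (p : Fin 5 → Pt) :
    (∏ l, c0 (p l)) * F p = 0 := by
  classical
  by_cases h0 : ∀ l, c0 (p l) ≠ 0
  · choose k hk using fun l => exists_frame_of_c0 (h0 l)
    obtain ⟨i, j, hne, hij⟩ := Fintype.exists_ne_map_eq_of_card_lt k (by simp)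
    rw [hz p i j hne (by rw [← hk i, ← hk j, hij]), mul_zero]
  · push Not at h0
    obtain ⟨l, hl⟩ := h0
    rw [Finset.prod_eq_zero (Finset.mem_univ l) hl, zero_mul]

/-- All five positions give the same linear part. -/
theorem linear_swap (F : (Fin 5 → Pt) → ℂ)
    (hs : ∀ (σ : Equiv.Perm (Fin 5)) (p : Fin 5 → Pt), F (fun l => p (σ l)) = F p)
    (h : Meas) (S : Finset Pt) (i : Fin 5) :
    ∑ p ∈ Fintype.piFinset (fun _ : Fin 5 => S),
        F p * ∏ l, (if l = i then h (p l) else c0 (p l)) =
      ∑ p ∈ Fintype.piFinset (fun _ : Fin 5 => S),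
        F p * ∏ l, (if l = 0 then h (p l) else c0 (p l)) := by
  classical
  let e : Equiv.Perm (Fin 5) := Equiv.swap 0 i
  refine Finset.sum_equiv (Equiv.arrowCongr e (Equiv.refl Pt)) ?_ ?_
  · intro p
    simp only [Fintype.mem_piFinset, Equiv.arrowCongr_apply, Equiv.coe_refl, Function.comp_apply,
      id_eq]
    constructor
    · intro hp l
      exact hp _
    · intro hp l
      have := hp (e l)
      simpa using this
  · intro p _
    have h1 : (Equiv.arrowCongr e (Equiv.refl Pt)) p = fun l => p (e.symm l) := by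
      funext l
      simp
    rw [h1, hs e.symm p]
    congr 1
    rw [← Equiv.prod_comp e.symm (fun l => if l = i then h (p l) else c0 (p l))]
    refine Finset.prod_congr rfl fun l _ => ?_
    have h2 : e.symm l = i ↔ l = 0 := by
      rw [Equiv.symm_apply_eq]
      simp [e]
    simp only [h2]

/-- The linear part at the first position. -/
theorem linear_zero (F : (Fin 5 → Pt) → ℂ)
    (hs : ∀ (σ : Equiv.Perm (Fin 5)) (p : Fin 5 → Pt), F (fun l => p (σ l)) = F p)
    (hz : ∀ (p : Fin 5 → Pt) (i j : Fin 5), i ≠ j → p i = p j → F p = 0) (h : Meas)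
    (S : Finset Pt) (hS : c0.support ⊆ S) (hS' : h.support ⊆ S) :
    ∑ p ∈ Fintype.piFinset (fun _ : Fin 5 => S),
        F p * ∏ l, (if l = 0 then h (p l) else c0 (p l)) =
      24 * (h.sum fun p w => w * F (five p)) := by
  classical
  have key : ∀ x : Pt, ∑ q ∈ Fintype.piFinset (fun _ : Fin 4 => S),
      (∏ l, c0 (q l)) * F (Fin.cons x q) = 24 * F (five x) := by
    intro x
    rw [sum_frame (fun q => F (Fin.cons x q)) S hS]
    · have h3 : ∀ σ : Equiv.Perm (Fin 4), F (Fin.cons x (fun l => frame (σ l))) = F (five x) := by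
        intro σ
        let σ' : Equiv.Perm (Fin 5) := Equiv.Perm.decomposeFin.symm (0, σ)
        have h4 := hs σ' (five x)
        rw [← h4]
        congr 1
        funext l
        refine Fin.cases ?_ (fun l => ?_) l
        · simp [five, σ']
        · simp [five, σ', Equiv.Perm.decomposeFin_symm_apply_succ]
      rw [Finset.sum_congr rfl fun σ _ => h3 σ]
      simp [Fintype.card_perm]
      norm_num [Nat.factorial]
    · intro q i j hne hij
      refine hz _ i.succ j.succ (fun hh => hne (Fin.succ_injective _ hh)) ?_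
      simpa using hij
  have hsum : ∑ p ∈ Fintype.piFinset (fun _ : Fin 5 => S),
        F p * ∏ l, (if l = 0 then h (p l) else c0 (p l)) =
      ∑ x ∈ S, ∑ q ∈ Fintype.piFinset (fun _ : Fin 4 => S),
        F (Fin.cons x q) * (h x * ∏ l, c0 (q l)) := by
    rw [← Finset.sum_product']
    refine Finset.sum_nbij' (fun p => (p 0, fun l : Fin 4 => p l.succ))
      (fun xq => Fin.cons xq.1 xq.2) ?_ ?_ ?_ ?_ ?_
    · intro p hp
      rw [Fintype.mem_piFinset] at hp
      rw [Finset.mem_product, Fintype.mem_piFinset]
      exact ⟨hp 0, fun l => hp _⟩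
    · intro xq hxq
      rw [Finset.mem_product, Fintype.mem_piFinset] at hxq
      rw [Fintype.mem_piFinset]
      intro l
      refine Fin.cases ?_ (fun l => ?_) l
      · simpa using hxq.1
      · simpa using hxq.2 l
    · intro p _
      funext l
      refine Fin.cases ?_ (fun l => ?_) l <;> simp
    · intro xq _
      ext <;> simp
    · intro p _
      have h5 : (Fin.cons (p 0) (fun l : Fin 4 => p l.succ) : Fin 5 → Pt) = p := by
        funext l
        refine Fin.cases ?_ (fun l => ?_) l <;> simp
      simp only [h5]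
      rw [Fin.prod_univ_succ]
      simp [Fin.succ_ne_zero]
  rw [hsum, Finsupp.sum, Finset.mul_sum]
  have h6 : ∀ x ∈ S, ∑ q ∈ Fintype.piFinset (fun _ : Fin 4 => S),
        F (Fin.cons x q) * (h x * ∏ l, c0 (q l)) = 24 * (h x * F (five x)) := by
    intro x _
    rw [show (24 : ℂ) * (h x * F (five x)) = h x * (24 * F (five x)) by ring, ← key x,
      Finset.mul_sum]
    refine Finset.sum_congr rfl fun q _ => ?_
    ring
  rw [Finset.sum_congr rfl h6]
  symm
  refine Finset.sum_subset hS' ?_
  intro x _ hx
  rw [Finsupp.notMem_support_iff] at hx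
  rw [hx]
  ring

end A3

open A3 in
/-- ROW A3. The linear part at the frame. -/
theorem integ_line (F : (Fin 5 → Pt) → ℂ)
    (hs : ∀ (σ : Equiv.Perm (Fin 5)) (p : Fin 5 → Pt), F (fun l => p (σ l)) = F p)
    (hz : ∀ (p : Fin 5 → Pt) (i j : Fin 5), i ≠ j → p i = p j → F p = 0) (h : Meas) :
    ∃ R : Polynomial ℂ, ∀ τ : ℂ,
      integ ((∑ k : Fin 4, Finsupp.single (frame k) (1 : ℂ)) + τ • h) F =
        τ * (120 * (h.sum fun p w => w * F (five p)) + τ * R.eval τ) := by
  classical
  let S : Finset Pt := c0.support ∪ h.support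
  have hS : c0.support ⊆ S := Finset.subset_union_left
  have hS' : h.support ⊆ S := Finset.subset_union_right
  let P : ℂ[X] := ∑ p ∈ Fintype.piFinset (fun _ : Fin 5 => S),
    C (F p) * ∏ l, (C (c0 (p l)) + X * C (h (p l)))
  have hP : ∀ τ : ℂ, integ (c0 + τ • h) F = P.eval τ := by
    intro τ
    rw [integ_eq_of_subset (c0 + τ • h) F S]
    · simp only [P, Polynomial.eval_finsetSum, Polynomial.eval_mul, Polynomial.eval_prod,
        Polynomial.eval_add, Polynomial.eval_C, Polynomial.eval_X, Finsupp.add_apply,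
        Finsupp.smul_apply, smul_eq_mul]
      refine Finset.sum_congr rfl fun p _ => ?_
      ring
    · refine Finsupp.support_add.trans ?_
      exact Finset.union_subset_union (Finset.Subset.refl _) Finsupp.support_smul
  have h0 : P.coeff 0 = 0 := by
    simp only [P, Polynomial.finsetSum_coeff, Polynomial.coeff_C_mul, coeff0_prod]
    refine Finset.sum_eq_zero fun p _ => ?_
    rw [mul_comm]
    exact sum_five_zero F hz p
  have h1 : P.coeff 1 = 120 * (h.sum fun p w => w * F (five p)) := by
    simp only [P, Polynomial.finsetSum_coeff, Polynomial.coeff_C_mul, coeff1_prod,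
      Finset.mul_sum]
    rw [Finset.sum_comm]
    rw [Finset.sum_congr rfl fun i _ => linear_swap F hs h S i]
    rw [linear_zero F hs hz h S hS hS']
    simp
    ring
  refine ⟨P.divX.divX, fun τ => ?_⟩
  have h2 := hP τ
  rw [eval_first, h0, h1] at h2
  rw [zero_add] at h2
  exact h2

end Vale.Agent.P181.H553
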